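import Vale.Agent.P235T.TIter

/-! Exact laws by compactness. `cpt`: put the weight of the two constant cuts to `0` (`Ap.cs` does not change); a nonconstant `η` separates some `x, y`, so `w η ≤ Ap.cs w x y ≤ d x y ≤ M`.
The set `{w ∈ Icc 0 (fun _ => M) | ∀ x y, c * d x y ≤ cs w x y ≤ d x y}` is compact (`isCompact_Icc.of_isClosed_subset`), nonempty, and the continuous `w ↦ Ap.cs w a b` has a maximum
(`IsCompact.exists_isMaxOn`), which is `≥ θ * d a b` for all `θ < 1`. `tw_exact`: `C` from `treewidth_embed k`, `c = 1 / max C 1`. If `a = b`: `Ap.toCuts`, divide by `max C 1`. If `G.Adj a b`: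
`not_con` gives `ρ`, `L ≤ C` with `θ * L * d a b < ρ a b`; `1 ≤ L` since `0 < d a b ≤ ρ a b ≤ L * d a b` (`Pl.spDist_pos`); `ρ ≤ L * d` for all pairs (`lip_le` with `F = ρ x · / L`: triangle
inequality of `ρ = ‖f x - f y‖`, and `d z z' ≤ ℓ s(z, z')` on edges); `Ap.toCuts` for `ρ`, divide by `L`; then `cpt`. -/

namespace Vale.Agent.P235.Tw

theorem cpt {V : Type} [Fintype V] {d : V → V → ℝ} {c : ℝ} {a b : V}
    (h : ∀ θ : ℝ, 0 ≤ θ → θ < 1 → ∃ w : (V → Bool) → ℝ, (∀ η, 0 ≤ w η) ∧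
      (∀ x y, c * d x y ≤ Ap.cs w x y ∧ Ap.cs w x y ≤ d x y) ∧ θ * d a b ≤ Ap.cs w a b) :
    ∃ w : (V → Bool) → ℝ, (∀ η, 0 ≤ w η) ∧
      (∀ x y, c * d x y ≤ Ap.cs w x y ∧ Ap.cs w x y ≤ d x y) ∧ Ap.cs w a b = d a b := by
  classical
  obtain ⟨M, hM0, hM⟩ : ∃ M : ℝ, 0 ≤ M ∧ ∀ x y, d x y ≤ M := by
    obtain ⟨M, hM⟩ := (Set.finite_range fun p : V × V => d p.1 p.2).bddAbove
    exact ⟨max M 0, le_max_right _ _, fun x y => (hM ⟨(x, y), rfl⟩).trans (le_max_left _ _)⟩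
  have hc : ∀ x y : V, Continuous fun w : (V → Bool) → ℝ => Ap.cs w x y := fun x y => by
    unfold Ap.cs
    exact continuous_finsetSum _ fun η _ => (continuous_apply η).mul continuous_const
  have hS : IsCompact (Set.Icc (0 : (V → Bool) → ℝ) (fun _ => M) ∩
      {w | ∀ x y, c * d x y ≤ Ap.cs w x y ∧ Ap.cs w x y ≤ d x y}) := by
    refine isCompact_Icc.inter_right ?_
    simp only [Set.ofPred_forall]
    exact isClosed_iInter fun x => isClosed_iInter fun y =>
      (isClosed_le continuous_const (hc x y)).inter (isClosed_le (hc x y) continuous_const)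
  have key : ∀ θ : ℝ, 0 ≤ θ → θ < 1 → ∃ w ∈ Set.Icc (0 : (V → Bool) → ℝ) (fun _ => M) ∩
      {w | ∀ x y, c * d x y ≤ Ap.cs w x y ∧ Ap.cs w x y ≤ d x y}, θ * d a b ≤ Ap.cs w a b := by
    intro θ h0 h1
    obtain ⟨w, hw, h2, h3⟩ := h θ h0 h1
    have e : ∀ x y, Ap.cs (fun η => if ∃ x y, η x ≠ η y then w η else 0) x y = Ap.cs w x y :=
      fun x y => by
        unfold Ap.cs
        refine Finset.sum_congr rfl fun η _ => ?_
        by_cases hη : ∃ x y, η x ≠ η y
        · simp only [if_pos hη]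
        · have h4 : Ap.sp η x y = 0 := if_pos (by by_contra hn; exact hη ⟨x, y, hn⟩)
          rw [h4, mul_zero, mul_zero]
    refine ⟨fun η => if ∃ x y, η x ≠ η y then w η else 0,
      ⟨⟨fun η => ?_, fun η => ?_⟩, fun x y => ?_⟩, ?_⟩
    · show (0 : ℝ) ≤ ite _ _ _
      split_ifs
      · exact hw η
      · exact le_rfl
    · show ite _ _ _ ≤ M
      split_ifs with hη
      · obtain ⟨x, y, hn⟩ := hη
        have h4 : w η * Ap.sp η x y ≤ Ap.cs w x y := by
          unfold Ap.cs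
          exact Finset.single_le_sum (f := fun η => w η * Ap.sp η x y)
            (fun η _ => mul_nonneg (hw η) (Ap.sp_nonneg η x y)) (Finset.mem_univ η)
        have h5 : Ap.sp η x y = 1 := if_neg hn
        rw [h5, mul_one] at h4
        exact h4.trans ((h2 x y).2.trans (hM x y))
      · exact hM0
    · rw [e]
      exact h2 x y
    · rw [e]
      exact h3
  obtain ⟨w0, hw0, -⟩ := key 0 le_rfl one_pos
  obtain ⟨w, hw, hmax⟩ := hS.exists_isMaxOn ⟨w0, hw0⟩ (hc a b).continuousOn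
  refine ⟨w, fun η => hw.1.1 η, hw.2, le_antisymm (hw.2 a b).2 ?_⟩
  have hnn : 0 ≤ Ap.cs w a b := Ap.cs_nonneg (fun η => hw.1.1 η) a b
  by_contra hlt
  have hlt' := not_le.1 hlt
  have hd : 0 < d a b := lt_of_le_of_lt hnn hlt'
  obtain ⟨v, hv, h6⟩ := key ((Ap.cs w a b / d a b + 1) / 2) (by positivity)
    (by have := (div_lt_one hd).2 hlt'; linarith)
  have h7 : Ap.cs v a b ≤ Ap.cs w a b := hmax hv
  have h8 : (Ap.cs w a b / d a b + 1) / 2 * d a b = (Ap.cs w a b + d a b) / 2 := by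
    field_simp
  linarith

theorem tw_exact (k : ℕ) : ∃ c : ℝ, 0 < c ∧ ∀ (V : Type) [Fintype V] (G : SimpleGraph V),
    G.Connected → TreewidthLE G k → ∀ ℓ : Sym2 V → ℝ, (∀ e ∈ G.edgeSet, 0 < ℓ e) →
      ∀ a b : V, a = b ∨ G.Adj a b → ∃ w : (V → Bool) → ℝ, (∀ η, 0 ≤ w η) ∧
        (∀ x y, c * spDist G ℓ x y ≤ Ap.cs w x y ∧ Ap.cs w x y ≤ spDist G ℓ x y) ∧
          Ap.cs w a b = spDist G ℓ a b := by
  obtain ⟨C, hC⟩ := treewidth_embed k
  have hm : 0 < max C 1 := lt_max_of_lt_right one_pos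
  refine ⟨1 / max C 1, by positivity, fun V _ G hG tG ℓ hℓ a b hab => ?_⟩
  have hd0 : ∀ x y, 0 ≤ spDist G ℓ x y := fun x y => le_spDist hG fun p => len_nonneg hℓ p
  have hdiv : ∀ (w : (V → Bool) → ℝ) (L : ℝ) (x y : V),
      Ap.cs (fun η => w η / L) x y = Ap.cs w x y / L := fun w L x y => by
    unfold Ap.cs
    rw [Finset.sum_div]
    exact Finset.sum_congr rfl fun η _ => by ring
  have hsc : ∀ (w : (V → Bool) → ℝ) (L : ℝ), 0 < L → L ≤ max C 1 → (∀ η, 0 ≤ w η) →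
      (∀ x y, spDist G ℓ x y ≤ Ap.cs w x y ∧ Ap.cs w x y ≤ L * spDist G ℓ x y) →
      (∀ η, 0 ≤ w η / L) ∧ ∀ x y,
        1 / max C 1 * spDist G ℓ x y ≤ Ap.cs (fun η => w η / L) x y ∧
          Ap.cs (fun η => w η / L) x y ≤ spDist G ℓ x y := by
    intro w L hL hL' hw h
    refine ⟨fun η => div_nonneg (hw η) hL.le, fun x y => ?_⟩
    rw [hdiv]
    constructor
    · rw [le_div_iff₀ hL]
      refine le_trans ?_ (h x y).1
      have h1 : 1 / max C 1 * L ≤ 1 := by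
        rw [one_div_mul_eq_div, div_le_one hm]
        exact hL'
      have h2 := mul_le_mul_of_nonneg_right h1 (hd0 x y)
      linarith
    · rw [div_le_iff₀ hL]
      linarith [(h x y).2]
  rcases hab with rfl | hab
  · obtain ⟨w, hw, h⟩ := Ap.toCuts (hC V G hG tG ℓ hℓ)
    obtain ⟨h1, h2⟩ := hsc w (max C 1) hm le_rfl hw fun x y => ⟨(h x y).1,
      (h x y).2.trans (mul_le_mul_of_nonneg_right (le_max_left _ _) (hd0 x y))⟩
    refine ⟨_, h1, h2, le_antisymm (h2 a a).2 ?_⟩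
    refine le_trans ?_ (Ap.cs_nonneg h1 a a)
    simpa using spDist_le hℓ (SimpleGraph.Walk.nil : G.Walk a a)
  · refine cpt fun θ h0 h1 => ?_
    have hn := not_con hC hG tG hℓ hab h0 h1
    unfold Con at hn
    push Not at hn
    obtain ⟨ρ, hρ, h2, L, hL0, hLC, h3, h4⟩ := hn
    have hp := Pl.spDist_pos hG hℓ a b hab.ne
    have hL : 0 < L := by
      have h5 := (h2 a b).trans (h3 a b hab)
      rcases hL0.eq_or_lt with rfl | h6
      · linarith
      · exact h6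
    obtain ⟨w, hw, h5⟩ := Ap.toCuts hρ
    have h6 : ∀ x y, ρ x y ≤ L * spDist G ℓ x y := by
      obtain ⟨Ω, _, μ, f, hf⟩ := hρ
      have e : ∀ x y, ρ x y = ‖f x - f y‖ := fun x y =>
        le_antisymm (hf x y).1 (by simpa using (hf x y).2)
      intro x y
      have h7 : ρ x y / L - ρ x x / L ≤ spDist G ℓ x y := by
        refine lip_le hG (L := ℓ) (F := fun z => ρ x z / L) (fun z z' hz => ?_) x y
        show ρ x z' / L - ρ x z / L ≤ ℓ s(z, z')
        have h8 : spDist G ℓ z z' ≤ ℓ s(z, z') := by simpa using spDist_le hℓ hz.toWalk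
        have h9 : ρ x z' ≤ ρ x z + ρ z z' := by
          rw [e, e, e]
          exact norm_sub_le_norm_sub_add_norm_sub _ _ _
        rw [← sub_div, div_le_iff₀ hL]
        linarith [h3 z z' hz, mul_le_mul_of_nonneg_left h8 hL0]
      have h8 : ρ x x = 0 := by rw [e, sub_self, norm_zero]
      rw [h8, zero_div, sub_zero, div_le_iff₀ hL] at h7
      linarith
    obtain ⟨h7, h8⟩ := hsc w L hL (hLC.trans (le_max_left _ _)) hw fun x y =>
      ⟨(h2 x y).trans (h5 x y).1, by linarith [(h5 x y).2, h6 x y]⟩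
    refine ⟨_, h7, h8, ?_⟩
    rw [hdiv, le_div_iff₀ hL]
    linarith [(h5 a b).1]

end Vale.Agent.P235.Tw
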