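import Vale.Agent.P235.Concrete
import Vale.Agent.P235V.VTw

/-! Edge replacement: every dart of `G` gets a copy of `H`, glued along `a, b`. FROZEN. -/

namespace Vale.Agent.P235.Tw

open Classical

variable {V W : Type}

/-- The vertices of the composition. -/
abbrev CV (G : SimpleGraph V) (a b : W) : Type := V ⊕ (G.Dart × {u : W // u ≠ a ∧ u ≠ b})

/-- The copy of `H` at the dart `e`. -/
noncomputable def cj (G : SimpleGraph V) (a b : W) (e : G.Dart) (u : W) : CV G a b :=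
  if h1 : u = a then .inl e.fst else if h2 : u = b then .inl e.snd else .inr (e, ⟨u, h1, h2⟩)

/-- The composition. -/
def cG (G : SimpleGraph V) (H : SimpleGraph W) (a b : W) : SimpleGraph (CV G a b) :=
  SimpleGraph.fromRel fun z z' => (∃ x y, G.Adj x y ∧ z = .inl x ∧ z' = .inl y) ∨
    ∃ e u v, H.Adj u v ∧ z = cj G a b e u ∧ z' = cj G a b e v

variable {G : SimpleGraph V} {H : SimpleGraph W} {a b : W}

theorem cj_a (e : G.Dart) : cj G a b e a = .inl e.fst := dif_pos rfl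

theorem cj_b (hab : a ≠ b) (e : G.Dart) : cj G a b e b = .inl e.snd := by
  rw [cj, dif_neg hab.symm, dif_pos rfl]

theorem cj_ne (e : G.Dart) {u : W} (h1 : u ≠ a) (h2 : u ≠ b) :
    cj G a b e u = .inr (e, ⟨u, h1, h2⟩) := by
  rw [cj, dif_neg h1, dif_neg h2]

theorem cj_inj (e : G.Dart) : Function.Injective (cj G a b e) := fun u v h => by
  have := e.adj.ne
  unfold cj at h
  split_ifs at h <;> simp_all

theorem cG_inl {x y : V} (h : G.Adj x y) : (cG G H a b).Adj (.inl x) (.inl y) :=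
  (SimpleGraph.fromRel_adj _ _ _).2 ⟨by simpa using h.ne, .inl (.inl ⟨x, y, h, rfl, rfl⟩)⟩

theorem cG_cj (e : G.Dart) {u v : W} (h : H.Adj u v) :
    (cG G H a b).Adj (cj G a b e u) (cj G a b e v) :=
  (SimpleGraph.fromRel_adj _ _ _).2
    ⟨fun k => h.ne (cj_inj e k), .inl (.inr ⟨e, u, v, h, rfl, rfl⟩)⟩

theorem cG_adj {z z' : CV G a b} (h : (cG G H a b).Adj z z') :
    (∃ x y, G.Adj x y ∧ z = .inl x ∧ z' = .inl y) ∨
      ∃ e u v, H.Adj u v ∧ z = cj G a b e u ∧ z' = cj G a b e v := by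
  rcases ((SimpleGraph.fromRel_adj _ _ _).1 h).2 with h | ⟨x, y, h, h1, h2⟩ | ⟨e, u, v, h, h1, h2⟩
  · exact h
  · exact .inl ⟨y, x, h.symm, h2, h1⟩
  · exact .inr ⟨e, v, u, h.symm, h2, h1⟩

/-- The contraction property of a pair: an `L₁` pseudometric above `d` that stretches the edges by
at most `L ≤ C` stretches the pair by at most `θ L`. -/
def Con (G : SimpleGraph V) (d : V → V → ℝ) (a b : V) (C θ : ℝ) : Prop :=
  ∀ ρ : V → V → ℝ, EmbedsL1 ρ 1 → (∀ x y, d x y ≤ ρ x y) → ∀ L : ℝ, 0 ≤ L → L ≤ C →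
    (∀ x y, G.Adj x y → ρ x y ≤ L * d x y) → ρ a b ≤ θ * L * d a b

end Vale.Agent.P235.Tw
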