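import Vale.Agent.P235S.SDefs
import Vale.Agent.P235V.VDef

/-! Sums along at most two vertices, and classes built in rounds. -/

namespace Vale.Agent.P235

/-- `G` has a tree decomposition, rooted at `r`, in which different bags share at most two
vertices and every torso is planar, or has treewidth at most `k`, or belongs to the class `P` and
shares at most one vertex with its parent bag. -/
def SumOf {V : Type} (G : SimpleGraph V) (k : ℕ) (P : ∀ W : Type, SimpleGraph W → Prop) : Prop :=
  ∃ (ι : Type) (_ : Finite ι) (T : SimpleGraph ι) (B : ι → Set V) (r : ι), T.IsTree ∧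
    (∀ x y, G.Adj x y → ∃ t, x ∈ B t ∧ y ∈ B t) ∧
    (∀ v, (T.induce {t | v ∈ B t}).Connected) ∧
    (∀ s t, s ≠ t → (B s ∩ B t).ncard ≤ 2) ∧
    ∀ t, Planar (torso G B t) ∨ TreewidthLE (torso G B t) k ∨
      (P _ (torso G B t) ∧ ∀ s, T.Adj t s → T.dist s r < T.dist t r → (B t ∩ B s).ncard ≤ 1)

/-- The graphs built in at most `n` rounds from graphs almost embedded in a surface, each round
adding at most `k` apices or taking sums. -/
def Built (g k : ℕ) : ℕ → ∀ V : Type, SimpleGraph V → Prop
  | 0 => fun _ G => TreewidthLE G k ∨ EulerGenusLE G g ∨ NearEmb G g k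
  | n + 1 => fun V G => Built g k n V G ∨ SumOf G k (Built g k n) ∨
      ∃ A : Finset V, A.card ≤ k ∧
        ∀ c : (G.induce (↑A : Set V)ᶜ).ConnectedComponent, Built g k n _ c.toSimpleGraph

end Vale.Agent.P235
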