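import Vale.Agent.P235T.TLen

/-! Lower bounds for the distances of the composition. `lip_le`: induction on a walk, `le_spDist`. `ext_down`: given `F : V → ℝ` with `F y - F x ≤ d x y`, put
`F' (inl x) = F x`, `F' (inr (e, u)) = min (F e.fst + s e * d' a u) (F e.snd + s e * d' b u)`; the same formula holds for `cj e a`, `cj e b` since `s e * d' a b = d e.fst e.snd`, hence `F'` is
`L`-Lipschitz along all edges (`cG_adj`). `low_inl`: `F = d x ·`. `low_cj`: `f = s e₀ * d' u₀ ·` on the copy `e₀`, `F x = min (f a + d e₀.fst x) (f b + d e₀.snd x)` (so `F e₀.fst = f a`,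
`F e₀.snd = f b`), `F'` as above on the other copies and `f` on the copy `e₀`. -/

namespace Vale.Agent.P235.Tw

variable {V W : Type} {G : SimpleGraph V} {H : SimpleGraph W} {a b : W}

theorem lip_le {U : Type} {K : SimpleGraph U} (hK : K.Connected) {L : Sym2 U → ℝ} {F : U → ℝ}
    (h : ∀ z z', K.Adj z z' → F z' - F z ≤ L s(z, z')) (z z' : U) :
    F z' - F z ≤ spDist K L z z' := by
  refine le_spDist hK fun p => ?_
  induction p with
  | nil => simp
  | cons k p ih =>
    rw [SimpleGraph.Walk.edges_cons, List.map_cons, List.sum_cons]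
    linarith [h _ _ k]

variable [PseudoMetricSpace V] [PseudoMetricSpace W] {s : G.Dart → ℝ} {L : Sym2 (CV G a b) → ℝ}

theorem td_min {X : Type} [PseudoMetricSpace X] {c : ℝ} (hc : 0 ≤ c) (A B : ℝ) (p q u v : X) :
    min (A + c * dist p v) (B + c * dist q v) - min (A + c * dist p u) (B + c * dist q u) ≤
      c * dist u v := by
  have k1 := mul_le_mul_of_nonneg_left (dist_triangle p u v) hc
  have k2 := mul_le_mul_of_nonneg_left (dist_triangle q u v) hc
  have k3 := min_le_left (A + c * dist p v) (B + c * dist q v)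
  have k4 := min_le_right (A + c * dist p v) (B + c * dist q v)
  rcases min_choice (A + c * dist p u) (B + c * dist q u) with k | k <;> rw [k] <;> linarith

theorem td_l {X : Type} [PseudoMetricSpace X] {c A B : ℝ} {p q : X} (h : A - B ≤ c * dist p q) :
    min (A + c * dist p p) (B + c * dist q p) = A := by
  rw [dist_self, mul_zero, add_zero, dist_comm q p]
  exact min_eq_left (by linarith)

theorem td_r {X : Type} [PseudoMetricSpace X] {c A B : ℝ} {p q : X} (h : B - A ≤ c * dist p q) :
    min (A + c * dist p q) (B + c * dist q q) = B := by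
  rw [dist_self, mul_zero, add_zero]
  exact min_eq_right (by linarith)

theorem td_gen (hG : G.Connected) (hH : H.Connected) (hab : a ≠ b)
    (h1 : ∀ x y, L s(.inl x, .inl y) = dist x y)
    (h2 : ∀ e u v, L s(cj G a b e u, cj G a b e v) = s e * dist u v) {F : V → ℝ}
    (hF : ∀ x y, F y - F x ≤ dist x y) {g : G.Dart → W → ℝ} (ga : ∀ e, g e a = F e.fst)
    (gb : ∀ e, g e b = F e.snd) (gl : ∀ e u v, g e v - g e u ≤ s e * dist u v) :
    (∀ x y, F y - F x ≤ spDist (cG G H a b) L (.inl x) (.inl y)) ∧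
      ∀ e u v, g e v - g e u ≤ spDist (cG G H a b) L (cj G a b e u) (cj G a b e v) := by
  obtain ⟨F', k1, k2⟩ : ∃ F' : CV G a b → ℝ, (∀ x, F' (.inl x) = F x) ∧
      ∀ e u, F' (cj G a b e u) = g e u := by
    refine ⟨Sum.elim F fun p => g p.1 p.2, fun _ => rfl, fun e u => ?_⟩
    by_cases c1 : u = a
    · rw [c1, cj_a, ga, Sum.elim_inl]
    · by_cases c2 : u = b
      · rw [c2, cj_b hab, gb, Sum.elim_inl]
      · rw [cj_ne e c1 c2, Sum.elim_inr]
  have k3 := lip_le (comp_conn (a := a) (b := b) hG hH) (L := L) (F := F') fun z z' h => by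
    rcases cG_adj h with ⟨x, y, -, rfl, rfl⟩ | ⟨e, u, v, -, rfl, rfl⟩
    · rw [k1, k1, h1]
      exact hF x y
    · rw [k2, k2, h2]
      exact gl e u v
  exact ⟨fun x y => by rw [← k1, ← k1]; exact k3 _ _, fun e u v => by rw [← k2, ← k2]; exact k3 _ _⟩

theorem td_ext (hs : ∀ e, 0 ≤ s e) (h5 : ∀ e : G.Dart, s e * dist a b = dist e.fst e.snd)
    {F : V → ℝ} (hF : ∀ x y, F y - F x ≤ dist x y) : ∃ g : G.Dart → W → ℝ,
    (∀ e, g e a = F e.fst) ∧ (∀ e, g e b = F e.snd) ∧ ∀ e u v, g e v - g e u ≤ s e * dist u v :=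
  ⟨fun e u => min (F e.fst + s e * dist a u) (F e.snd + s e * dist b u),
    fun e => td_l (by rw [h5, dist_comm]; exact hF _ _), fun e => td_r (by rw [h5]; exact hF _ _),
    fun e u v => td_min (hs e) _ _ a b u v⟩

theorem low_inl (hG : G.Connected) (hH : H.Connected) (hab : a ≠ b) (hs : ∀ e, 0 ≤ s e)
    (h5 : ∀ e : G.Dart, s e * dist a b = dist e.fst e.snd)
    (h1 : ∀ x y, L s(.inl x, .inl y) = dist x y)
    (h2 : ∀ e u v, L s(cj G a b e u, cj G a b e v) = s e * dist u v) (x y : V) :
    dist x y ≤ spDist (cG G H a b) L (.inl x) (.inl y) := by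
  have hF : ∀ z w : V, dist x w - dist x z ≤ dist z w := fun z w => by
    linarith [dist_triangle x z w]
  obtain ⟨g, ga, gb, gl⟩ := td_ext hs h5 (F := fun z => dist x z) hF
  simpa using (td_gen hG hH hab h1 h2 hF ga gb gl).1 x y

theorem low_cj (hG : G.Connected) (hH : H.Connected) (hab : a ≠ b) (hs : ∀ e, 0 ≤ s e)
    (h5 : ∀ e : G.Dart, s e * dist a b = dist e.fst e.snd)
    (h1 : ∀ x y, L s(.inl x, .inl y) = dist x y)
    (h2 : ∀ e u v, L s(cj G a b e u, cj G a b e v) = s e * dist u v) (e : G.Dart) (u v : W) :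
    s e * dist u v ≤ spDist (cG G H a b) L (cj G a b e u) (cj G a b e v) := by
  classical
  have hf : ∀ z w : W, s e * dist u w - s e * dist u z ≤ s e * dist z w := fun z w => by
    linarith [mul_le_mul_of_nonneg_left (dist_triangle u z w) (hs e)]
  obtain ⟨F, hF, Fa, Fb⟩ : ∃ F : V → ℝ, (∀ x y, F y - F x ≤ dist x y) ∧
      F e.fst = s e * dist u a ∧ F e.snd = s e * dist u b :=
    ⟨fun x => min (s e * dist u a + 1 * dist e.fst x) (s e * dist u b + 1 * dist e.snd x),
      fun x y => (td_min zero_le_one _ _ _ _ x y).trans_eq (one_mul _),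
      td_l (by rw [one_mul, ← h5, dist_comm a b]; exact hf b a),
      td_r (by rw [one_mul, ← h5]; exact hf a b)⟩
  obtain ⟨g, ga, gb, gl⟩ := td_ext hs h5 hF
  have := (td_gen hG hH hab h1 h2 hF (g := fun e' z => if e' = e then s e * dist u z else g e' z)
    (fun e' => by
      split_ifs with k
      · rw [k, Fa]
      · exact ga e')
    (fun e' => by
      split_ifs with k
      · rw [k, Fb]
      · exact gb e')
    fun e' z w => by
      split_ifs with k
      · rw [k]
        exact hf z w
      · exact gl e' z w).2 e u v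
  simpa using this

end Vale.Agent.P235.Tw
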