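import Vale.Agent.P235T.TTree
import Vale.Agent.P235T.TDist
import Vale.Agent.P235P.ZMain
import Vale.Agent.P235Q.ApCut

/-! Coarse differentiation. `con_step`: `letI := spMetric` on `V` and `W`; `s e = d e.fst e.snd / d' a' b' > 0` (`Pl.spDist_pos`), `L` from `exists_len`, `K = cG G H a' b'`, pair `inl a, inl b`;
edges have positive length (`cG_adj`). On an edge `z z'` of `K`, `spDist K L z z' ≤ L s(z, z')` (`spDist_le` for `Adj.toWalk`). Given `ρ` on `K`: for each dart `e`, `ρ (cj e u) (cj e v) / s e`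
is `L₁` (`Ap.EmbedsL1.comap`, `emb_smul`), above `d'` (`low_cj`) and stretches edges by `≤ L₀`, so `ρ (inl e.fst) (inl e.snd) ≤ η L₀ d e.fst e.snd` (`cj_a`, `cj_b`). Apply `Con G` to
`ρ (inl x) (inl y)` with `η L₀ ≤ C` (`low_inl`), and `d a b ≤ spDist K L (inl a) (inl b)`. `not_con`: by induction on `n` there is a graph of treewidth `≤ k` with an edge with `Con .. C (θ ^ (n + 1))`;
apply it to `ρ x y = ‖f x - f y‖`, `L = C` (`C ≥ 1` as `0 < d ≤ ρ ≤ C d`), get `1 ≤ θ ^ (n + 1) * C` for all `n`, impossible (`exists_pow_lt_of_lt_one`). -/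

namespace Vale.Agent.P235.Tw

theorem emb_smul {V : Type} {ρ : V → V → ℝ} (h : EmbedsL1 ρ 1) {t : ℝ} (ht : 0 ≤ t) :
    EmbedsL1 (fun x y => t * ρ x y) 1 := by
  obtain ⟨Ω, m, μ, f, hf⟩ := h
  refine ⟨Ω, m, μ, fun x => t • f x, fun x y => ?_⟩
  rw [← smul_sub, norm_smul, Real.norm_of_nonneg ht]
  exact ⟨mul_le_mul_of_nonneg_left (hf x y).1 ht,
    (mul_le_mul_of_nonneg_left (hf x y).2 ht).trans_eq (by ring)⟩

theorem con_step {V W : Type} [Fintype V] [Fintype W] {G : SimpleGraph V} {H : SimpleGraph W}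
    (hG : G.Connected) (hH : H.Connected) {k : ℕ} (tG : TreewidthLE G k) (tH : TreewidthLE H k)
    {ℓ : Sym2 V → ℝ} {ℓ' : Sym2 W → ℝ} (hℓ : ∀ e ∈ G.edgeSet, 0 < ℓ e)
    (hℓ' : ∀ e ∈ H.edgeSet, 0 < ℓ' e) {a b : V} {a' b' : W} (hab : G.Adj a b) (hab' : H.Adj a' b')
    {C θ η : ℝ} (hθ : 0 ≤ θ) (hη : 0 ≤ η) (hη1 : η ≤ 1) (h1 : Con G (spDist G ℓ) a b C θ)
    (h2 : Con H (spDist H ℓ') a' b' C η) :
    ∃ (U : Type) (_ : Fintype U) (K : SimpleGraph U) (L : Sym2 U → ℝ) (p q : U), K.Connected ∧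
      TreewidthLE K k ∧ (∀ e ∈ K.edgeSet, 0 < L e) ∧ K.Adj p q ∧
        Con K (spDist K L) p q C (θ * η) := by
  classical
  have pd := Pl.spDist_pos hG hℓ
  have pd' := Pl.spDist_pos hH hℓ'
  have p0 := pd' _ _ hab'.ne
  obtain ⟨s, hs0, hs⟩ : ∃ s : G.Dart → ℝ, (∀ e, 0 < s e) ∧
      ∀ e, s e * spDist H ℓ' a' b' = spDist G ℓ e.fst e.snd :=
    ⟨fun e => spDist G ℓ e.fst e.snd / spDist H ℓ' a' b', fun e => div_pos (pd _ _ e.adj.ne) p0,
      fun e => div_mul_cancel₀ _ p0.ne'⟩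
  obtain ⟨L, l1, l2⟩ := exists_len hab'.ne (spDist G ℓ) (spDist H ℓ') s (spMetric hG hℓ).dist_comm
    (spMetric hH hℓ').dist_comm (spMetric hG hℓ).dist_self (spMetric hH hℓ').dist_self hs
  have w1 : ∀ x y, spDist G ℓ x y ≤ spDist (cG G H a' b') L (.inl x) (.inl y) :=
    letI := spMetric hG hℓ
    letI := spMetric hH hℓ'
    low_inl (s := s) hG hH hab'.ne (fun e => (hs0 e).le) hs l1 l2
  have w2 : ∀ e u v, s e * spDist H ℓ' u v ≤
      spDist (cG G H a' b') L (cj G a' b' e u) (cj G a' b' e v) :=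
    letI := spMetric hG hℓ
    letI := spMetric hH hℓ'
    low_cj (s := s) hG hH hab'.ne (fun e => (hs0 e).le) hs l1 l2
  have hL : ∀ e ∈ (cG G H a' b').edgeSet, 0 < L e := by
    intro e
    induction e using Sym2.ind with
    | h z z' =>
      intro hz
      rcases cG_adj hz with ⟨x, y, hxy, rfl, rfl⟩ | ⟨e, u, v, huv, rfl, rfl⟩
      · rw [l1]
        exact pd _ _ hxy.ne
      · rw [l2]
        exact mul_pos (hs0 e) (pd' _ _ huv.ne)
  have edge : ∀ {z z'}, (cG G H a' b').Adj z z' → spDist (cG G H a' b') L z z' ≤ L s(z, z') :=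
    fun h => (spDist_le hL (.cons h .nil)).trans_eq (by simp)
  refine ⟨CV G a' b', inferInstance, cG G H a' b', L, .inl a, .inl b, comp_conn hG hH,
    comp_tw tG tH hab', hL, cG_inl hab, fun ρ hρ hlow L₀ L0 LC hedge => ?_⟩
  have step : ∀ e : G.Dart, ρ (.inl e.fst) (.inl e.snd) ≤ η * L₀ * spDist G ℓ e.fst e.snd := by
    intro e
    have t := h2 (fun u v => (s e)⁻¹ * ρ (cj G a' b' e u) (cj G a' b' e v))
      (emb_smul (Ap.EmbedsL1.comap hρ (cj G a' b' e)) (inv_pos.2 (hs0 e)).le)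
      (fun u v => (le_inv_mul_iff₀ (hs0 e)).2 ((w2 e u v).trans (hlow _ _))) L₀ L0 LC
      fun u v h => (inv_mul_le_iff₀ (hs0 e)).2 (((hedge _ _ (cG_cj e h)).trans
        (mul_le_mul_of_nonneg_left (edge (cG_cj e h)) L0)).trans_eq (by rw [l2]; ring))
    rw [inv_mul_le_iff₀ (hs0 e), cj_a, cj_b hab'.ne] at t
    exact t.trans_eq (by rw [← hs e]; ring)
  have t := h1 (fun x y => ρ (.inl x) (.inl y)) (Ap.EmbedsL1.comap hρ Sum.inl)
    (fun x y => (w1 x y).trans (hlow _ _)) (η * L₀) (mul_nonneg hη L0)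
    ((mul_le_of_le_one_left L0 hη1).trans LC) fun x y h => step ⟨(x, y), h⟩
  rw [← mul_assoc] at t
  exact t.trans (mul_le_mul_of_nonneg_left (w1 a b) (mul_nonneg (mul_nonneg hθ hη) L0))

theorem not_con {k : ℕ} {C : ℝ} (hC : ∀ (V : Type) [Fintype V] (G : SimpleGraph V),
      G.Connected → TreewidthLE G k → ∀ ℓ : Sym2 V → ℝ, (∀ e ∈ G.edgeSet, 0 < ℓ e) →
        EmbedsL1 (spDist G ℓ) C)
    {V : Type} [Fintype V] {G : SimpleGraph V} (hG : G.Connected) (tG : TreewidthLE G k)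
    {ℓ : Sym2 V → ℝ} (hℓ : ∀ e ∈ G.edgeSet, 0 < ℓ e) {a b : V} (hab : G.Adj a b) {θ : ℝ}
    (hθ : 0 ≤ θ) (hθ1 : θ < 1) : ¬ Con G (spDist G ℓ) a b C θ := by
  intro h
  have key : ∀ n : ℕ, ∃ (U : Type) (_ : Fintype U) (K : SimpleGraph U) (L : Sym2 U → ℝ) (p q : U),
      K.Connected ∧ TreewidthLE K k ∧ (∀ e ∈ K.edgeSet, 0 < L e) ∧ K.Adj p q ∧
        Con K (spDist K L) p q C (θ ^ (n + 1)) := by
    intro n
    induction n with
    | zero => exact ⟨V, inferInstance, G, ℓ, a, b, hG, tG, hℓ, hab, by rwa [zero_add, pow_one]⟩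
    | succ n ih =>
      obtain ⟨U, _, K, L, p, q, c1, c2, c3, c4, c5⟩ := ih
      rw [pow_succ]
      exact con_step c1 hG c2 tG c3 hℓ c4 hab (pow_nonneg hθ _) hθ hθ1.le c5 h
  have fin : ∀ n : ℕ, 1 ≤ C ∧ 1 ≤ θ ^ (n + 1) * C := by
    intro n
    obtain ⟨U, _, K, L, p, q, c1, c2, c3, c4, c5⟩ := key n
    obtain ⟨Ω, m, μ, f, hf⟩ := hC U K c1 c2 L c3
    have p0 := Pl.spDist_pos c1 c3 p q c4.ne
    have C1 : 1 ≤ C := (le_mul_iff_one_le_left p0).1 ((hf p q).1.trans (hf p q).2)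
    have t := c5 (fun x y => ‖f x - f y‖) ⟨Ω, m, μ, f, fun x y => ⟨le_rfl, (one_mul _).ge⟩⟩
      (fun x y => (hf x y).1) C (zero_le_one.trans C1) le_rfl fun x y _ => (hf x y).2
    exact ⟨C1, (le_mul_iff_one_le_left p0).1 ((hf p q).1.trans t)⟩
  have C0 : 0 < C := zero_lt_one.trans_le (fin 0).1
  obtain ⟨n, hn⟩ := exists_pow_lt_of_lt_one (inv_pos.2 C0) hθ1
  have e1 : θ ^ (n + 1) ≤ θ ^ n := pow_le_pow_of_le_one hθ hθ1.le (Nat.le_succ n)
  have e2 := mul_lt_mul_of_pos_right (e1.trans_lt hn) C0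
  rw [inv_mul_cancel₀ C0.ne'] at e2
  exact absurd (fin n).2 (not_le.2 e2)

end Vale.Agent.P235.Tw
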