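import Vale.Agent.P235T.TDef

/-! Connectivity and lengths of the composition. `comp_conn`: map walks along the homs given by `cG_inl`, `cG_cj`; every `inr (e, u)` is `cj e u`, reachable from `cj e a = inl e.fst`.
`exists_len`: `Sym2.lift` of the symmetric function `(inl x, inl y) ↦ d x y`, `(inl x, inr (e, u)) ↦ s e * d' (if x = e.fst then a else b) u` (and the mirror case),
`(inr (e, u), inr (e', v)) ↦ if e = e' then s e * d' u v else 0`; check the nine cases of `cj e u`, `cj e v` (`cj_a`, `cj_b`, `cj_ne`, `e.adj.ne`). -/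

namespace Vale.Agent.P235.Tw

variable {V W : Type} {G : SimpleGraph V} {H : SimpleGraph W} {a b : W}

theorem comp_conn (hG : G.Connected) (hH : H.Connected) : (cG G H a b).Connected := by
  have h1 : ∀ x y, (cG G H a b).Reachable (.inl x) (.inl y) := fun x y =>
    (hG x y).map (⟨Sum.inl, cG_inl⟩ : G →g cG G H a b)
  have h2 : ∀ z : CV G a b, ∃ x, (cG G H a b).Reachable z (.inl x) := by
    rintro (x | ⟨e, u, k1, k2⟩)
    · exact ⟨x, .refl _⟩
    · refine ⟨e.fst, ?_⟩
      rw [← cj_ne e k1 k2, ← cj_a (a := a) (b := b) e]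
      exact (hH u a).map (⟨cj G a b e, cG_cj e⟩ : H →g cG G H a b)
  obtain ⟨v⟩ := hG.nonempty
  have : Nonempty (CV G a b) := ⟨.inl v⟩
  refine ⟨fun z z' => ?_⟩
  obtain ⟨x, hx⟩ := h2 z
  obtain ⟨y, hy⟩ := h2 z'
  exact (hx.trans (h1 x y)).trans hy.symm

open Classical in
/-- The lengths of the composition. -/
noncomputable def lenF (a b : W) (d : V → V → ℝ) (d' : W → W → ℝ) (s : G.Dart → ℝ) :
    CV G a b → CV G a b → ℝ
  | .inl x, .inl y => d x y
  | .inl x, .inr p => s p.1 * d' (if x = p.1.fst then a else b) p.2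
  | .inr p, .inl x => s p.1 * d' (if x = p.1.fst then a else b) p.2
  | .inr p, .inr q => if p.1 = q.1 then s p.1 * d' p.2 q.2 else 0

theorem exists_len (hab : a ≠ b) (d : V → V → ℝ) (d' : W → W → ℝ) (s : G.Dart → ℝ)
    (h1 : ∀ x y, d x y = d y x) (h2 : ∀ u v, d' u v = d' v u) (h3 : ∀ x, d x x = 0)
    (h4 : ∀ u, d' u u = 0) (h5 : ∀ e : G.Dart, s e * d' a b = d e.fst e.snd) :
    ∃ L : Sym2 (CV G a b) → ℝ, (∀ x y, L s(.inl x, .inl y) = d x y) ∧
      ∀ e u v, L s(cj G a b e u, cj G a b e v) = s e * d' u v := by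
  refine ⟨Sym2.lift ⟨lenF a b d d' s, ?_⟩, fun x y => rfl, fun e u v => ?_⟩
  · rintro (x | p) (y | q)
    · exact h1 x y
    · rfl
    · rfl
    · simp only [lenF]
      by_cases h : p.1 = q.1
      · rw [if_pos h, if_pos h.symm, h, h2]
      · rw [if_neg h, if_neg (Ne.symm h)]
  have hn : e.snd ≠ e.fst := e.adj.ne'
  have k : ∀ u, u = a ∨ u = b ∨ (u ≠ a ∧ u ≠ b) := fun u => by tauto
  rw [Sym2.lift_mk]
  rcases k u with rfl | rfl | ⟨u1, u2⟩ <;> rcases k v with rfl | rfl | ⟨v1, v2⟩ <;>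
    first
    | exact absurd rfl hab
    | simp only [cj_a, cj_b hab, cj_ne e, lenF, h3, h4, mul_zero, if_true, if_neg hn, h5, ne_eq,
        not_false_eq_true, *]
  · rw [← h5, h2]
  · rw [if_neg not_false, h2]
  · rw [if_neg not_false]

end Vale.Agent.P235.Tw
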