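import Vale.Agent.P235S.SMain
import Vale.Agent.P235T.TCpt
import Vale.Agent.P235T.TRD
import Vale.Agent.P235T.TDefs2
import Vale.Agent.P235Q.Asm
import Vale.Agent.P235G.NMain
import Vale.Agent.P235V.VMain

/-! Sums along at most two vertices keep bounded distortion. -/

namespace Vale.Agent.P235.Ts

open Finset

set_option linter.unusedSectionVars false

theorem bdd_law {P : ∀ W : Type, SimpleGraph W → Prop} (h : Ap.Bdd P) : ∃ c : ℝ, 0 < c ∧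
    ∀ (V : Type) [Fintype V] (G : SimpleGraph V), G.Connected → P V G → ∀ ℓ : Sym2 V → ℝ,
      (∀ e ∈ G.edgeSet, 0 < ℓ e) → ∃ w : (V → Bool) → ℝ, (∀ η, 0 ≤ w η) ∧
        ∀ x y, c * spDist G ℓ x y ≤ Ap.cs w x y ∧ Ap.cs w x y ≤ spDist G ℓ x y := by
  obtain ⟨C, h⟩ := h
  have h0 : 0 < max C 1 := lt_max_of_lt_right one_pos
  refine ⟨(max C 1)⁻¹, inv_pos.2 h0, fun V _ G hG hp ℓ hl => ?_⟩
  obtain ⟨w, w0, w1⟩ := Ap.toCuts (Ap.emb_mono hG hl (le_max_left C 1) (h V G hG hp ℓ hl))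
  have e : ∀ x y, Ap.cs (fun η => (max C 1)⁻¹ * w η) x y = (max C 1)⁻¹ * Ap.cs w x y :=
    fun x y => by simp only [Ap.cs, mul_sum, mul_assoc]
  refine ⟨fun η => (max C 1)⁻¹ * w η, fun η => mul_nonneg (inv_pos.2 h0).le (w0 η), fun x y => ?_⟩
  rw [e]
  exact ⟨mul_le_mul_of_nonneg_left (w1 x y).1 (inv_pos.2 h0).le, (inv_mul_le_iff₀ h0).2 (w1 x y).2⟩

theorem sumOf_bdd {P : ∀ W : Type, SimpleGraph W → Prop} (h : Ap.Bdd P) (k : ℕ) :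
    Ap.Bdd fun _ G => SumOf G k P := by
  classical
  obtain ⟨c₁, h₁, H₁⟩ := Pl.planar_exact
  obtain ⟨c₂, h₂, H₂⟩ := Tw.tw_exact k
  obtain ⟨c₃, h₃, H₃⟩ := bdd_law h
  have c0 : 0 < min (min 1 c₃) (min c₁ c₂) := lt_min (lt_min one_pos h₃) (lt_min h₁ h₂)
  have c1 : min (min 1 c₃) (min c₁ c₂) ≤ 1 := (min_le_left _ _).trans (min_le_left _ _)
  have c2 : min (min 1 c₃) (min c₁ c₂) ≤ c₁ := (min_le_right _ _).trans (min_le_left _ _)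
  have c3 : min (min 1 c₃) (min c₁ c₂) ≤ c₂ := (min_le_right _ _).trans (min_le_right _ _)
  have c4 : min (min 1 c₃) (min c₁ c₂) ≤ c₃ := (min_le_left _ _).trans (min_le_right _ _)
  generalize min (min 1 c₃) (min c₁ c₂) = c at c0 c1 c2 c3 c4
  refine ⟨40 * (4 * 75 ^ 4 + 72) / (c / 1000) ^ 3, ?_⟩
  rintro V _ G hG ⟨ι, _, T, B, r, hT, hE, hC, h2, hP⟩ ℓ hℓ
  have := Fintype.ofFinite ι
  obtain ⟨D, hD, hr⟩ := exists_RD' hG hℓ hT hE hC r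
  have ht := torso_dist hG hℓ hE D hD
  letI := spMetric hG hℓ
  subst hD
  obtain ⟨v₀⟩ := hG.nonempty
  have sel : ∀ τ, ∃ a b, (τ ≠ D.root → D.Qs τ ⊆ {a, b}) ∧
      (τ ≠ D.root → (D.Qs τ).Nonempty → a ∈ D.Qs τ ∧ b ∈ D.Qs τ) ∧
      (a = b ∨ τ ≠ D.root ∧ (D.Qs τ).Nonempty) ∧
      ((D.B τ = ∅ ∧ a = b) ∨ (a ∈ D.B τ ∧ b ∈ D.B τ)) := fun τ => by
    by_cases h : τ ≠ D.root ∧ (D.Qs τ).Nonempty
    · obtain ⟨a, ha, b, hb, k⟩ := smain_two h.2 (h2 τ (D.par τ) (hr τ h.1).1.ne)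
      exact ⟨a, b, fun _ => k, fun _ _ => ⟨ha, hb⟩, Or.inr h, Or.inr ⟨ha.1, hb.1⟩⟩
    · have k : ∃ a, (D.B τ = ∅ ∧ a = a) ∨ (a ∈ D.B τ ∧ a ∈ D.B τ) :=
        (D.B τ).eq_empty_or_nonempty.elim (fun e => ⟨v₀, Or.inl ⟨e, rfl⟩⟩)
          fun ⟨a, ha⟩ => ⟨a, Or.inr ⟨ha, ha⟩⟩
      obtain ⟨a, k⟩ := k
      exact ⟨a, a, fun h1 x hx => (h ⟨h1, x, hx⟩).elim, fun h1 h3 => (h ⟨h1, h3⟩).elim,
        Or.inl rfl, k⟩
  choose a b s1 s2 s3 s4 using sel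
  refine cut2 (T := D) (a := a) (b := b) ⟨s1, s2, fun τ _ => (s3 τ).imp id And.right⟩
    (by positivity) (by linarith) fun τ => ?_
  rcases s4 τ with ⟨e1, e2⟩ | ⟨ha, hb⟩
  · rw [e1, ← e2]
    exact law_triv _ _
  refine law_exists ha hb c0 c1 ?_
  have := Fintype.ofFinite (D.B τ)
  obtain ⟨t1, t2, t3⟩ := ht τ
  have : Nonempty (D.B τ) := ⟨⟨_, ha⟩⟩
  rcases hP τ with h | h | ⟨h, h'⟩
  · obtain ⟨w, w0, w1, w2⟩ := H₁ _ _ ⟨t1⟩ h _ t2 ⟨_, ha⟩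
    simp only [t3] at w1 w2
    exact (ex_of_sub ha hb w0 (fun x y => ⟨(w1 x y).1, (w1 x y).2.1⟩) (w2 ⟨_, hb⟩)).mono c2
  · have hab : (⟨a τ, ha⟩ : D.B τ) = ⟨b τ, hb⟩ ∨ (torso G D.B τ).Adj ⟨a τ, ha⟩ ⟨b τ, hb⟩ := by
      by_cases e : (⟨a τ, ha⟩ : D.B τ) = ⟨b τ, hb⟩
      · exact Or.inl e
      · obtain ⟨k1, k2⟩ := (s3 τ).resolve_left fun k => e (Subtype.ext k)
        exact Or.inr ((SimpleGraph.fromRel_adj _ _ _).2 ⟨e, Or.inl (Or.inr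
          ⟨D.par τ, (hr τ k1).1.ne', (s2 τ k1 k2).1.2, (s2 τ k1 k2).2.2⟩)⟩)
    obtain ⟨w, w0, w1, w2⟩ := H₂ _ _ ⟨t1⟩ h _ t2 _ _ hab
    simp only [t3] at w1 w2
    exact (ex_of_sub ha hb w0 w1 w2).mono c3
  · have hab : a τ = b τ := (s3 τ).elim id fun ⟨k1, k2⟩ =>
      (Set.ncard_le_one (Set.toFinite _)).1 (h' _ (hr τ k1).1 (hr τ k1).2) _ (s2 τ k1 k2).1 _
        (s2 τ k1 k2).2
    obtain ⟨w, w0, w1⟩ := H₃ _ _ ⟨t1⟩ h _ t2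
    simp only [t3] at w1
    refine (ex_of_sub ha hb w0 w1 (le_antisymm (w1 _ _).2 ?_)).mono c4
    rw [show dist (a τ) (b τ) = 0 by rw [hab, dist_self]]
    exact Ap.cs_nonneg w0 _ _

theorem built_bdd (g k n : ℕ) : Ap.Bdd (Built g k n) := by
  induction n with
  | zero =>
    exact Ap.Bdd.or (P := fun _ G => TreewidthLE G k) (treewidth_embed k)
      (Ap.Bdd.or (P := fun _ G => EulerGenusLE G g) (Q := fun _ G => NearEmb G g k)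
        (Gn.euler_embed g) (Vx.near_embed g k))
  | succ n ih => exact ih.or ((sumOf_bdd ih k).or (ih.apex k))

end Vale.Agent.P235.Ts
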