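import Vale.Agent.P235T.TDef

/-! The composition keeps the treewidth. Decompositions `(ι, T, B)` of `G` and `(ι', T', B')` of `H`; `t'` with `a, b ∈ B' t'`, `t e` with `e.fst, e.snd ∈ B (t e)`. `exists_rooting` for `T`
(any root) and `T'` (root `t'`). New nodes `ι ⊕ (G.Dart × ι')`, parent `inl τ ↦ inl (par τ)`, `inr (e, t') ↦ inl (t e)`, `inr (e, τ) ↦ inr (e, par' τ)`, rank `dep τ`, resp.
`dep (t e) + 1 + dep' τ`; `vtw_tree`, `vtw_conn` (P235V/VTw.lean). Bags `(B τ).image inl`, `(B' τ).image (cj G a b e)`. `top_of_conn`: take `t ∈ S` of least depth; for `x ∈ S`, `x ≠ t`, apply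
`cross_walk` to a walk from `x` to `t` in `T.induce S` and `D z = ∃ n, par^[n] z = x` (false for `t` by depth); the crossing edge is `x, par x`. For the vertex `inl x` the top node is `inl` of the top of
`{τ | x ∈ B τ}`; in the copy `e` it occurs iff `x = e.fst`, `a ∈ B' τ` or `x = e.snd`, `b ∈ B' τ`, and the root `t'` lies in these sets (so it is their top: `par' t' = t'`, depth `0`). -/

namespace Vale.Agent.P235.Tw

variable {V W : Type} {G : SimpleGraph V} {H : SimpleGraph W} {a b : W}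

theorem top_of_conn {ι : Type} {T : SimpleGraph ι} {ρ : ι} {par : ι → ι} {dep : ι → ℕ}
    (h0 : par ρ = ρ) (h1 : dep ρ = 0) (h2 : ∀ τ ≠ ρ, dep τ = dep (par τ) + 1)
    (h3 : ∀ x y, T.Adj x y → par x = y ∨ par y = x) {S : Set ι} (hS : (T.induce S).Connected)
    {t : ι} (ht : t ∈ S) (hm : ∀ x ∈ S, dep t ≤ dep x) :
    ∀ x ∈ S, x ≠ t → x ≠ ρ ∧ par x ∈ S := by
  intro x hx hxt
  have k : ∀ n z, par^[n] z = z ∨ dep (par^[n] z) < dep z := fun n z => by
    induction n with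
    | zero => exact .inl rfl
    | succ n ih =>
      rw [Function.iterate_succ_apply']
      by_cases e : par^[n] z = ρ
      · rwa [e, h0, ← e]
      · have := h2 _ e
        rcases ih with ih | ih
        · rw [ih] at this ⊢
          omega
        · omega
  refine ⟨fun e => hxt (by_contra fun e' => ?_), ?_⟩
  · have := hm x hx
    have := h2 t fun g => e' (e.trans g.symm)
    rw [e, h1] at *
    omega
  obtain ⟨p⟩ := hS ⟨x, hx⟩ ⟨t, ht⟩
  obtain ⟨u, v, a1, ⟨n, a2⟩, a3⟩ := cross_walk (fun z : S => ∃ n, par^[n] z.1 = x) p ⟨0, rfl⟩ (by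
    rintro ⟨n, e⟩
    have := k n t
    rw [show par^[n] t = x from e] at this
    exact this.elim hxt (hm x hx).not_gt)
  rcases h3 u v a1 with e | e
  · cases n with
    | zero =>
      rw [← show u.1 = x from a2, e]
      exact v.2
    | succ n => exact absurd ⟨n, by rw [← e, ← a2, Function.iterate_succ_apply]⟩ a3
  · exact absurd ⟨n + 1, by rw [Function.iterate_succ_apply, e, a2]⟩ a3

theorem tt_inl {e : G.Dart} {u : W} {x : V} (h : cj G a b e u = .inl x) :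
    (u = a ∧ e.fst = x) ∨ (u = b ∧ e.snd = x) := by
  unfold cj at h
  split_ifs at h with h1 h2
  · exact .inl ⟨h1, Sum.inl_injective h⟩
  · exact .inr ⟨h2, Sum.inl_injective h⟩

theorem tt_inr {e e' : G.Dart} {u : W} {v : {u : W // u ≠ a ∧ u ≠ b}}
    (h : cj G a b e u = .inr (e', v)) : e = e' ∧ u = v := by
  unfold cj at h
  split_ifs at h with h1 h2
  obtain ⟨rfl, rfl⟩ := Prod.mk.inj (Sum.inr_injective h)
  exact ⟨rfl, rfl⟩

theorem tt_min {ι : Type} {T : SimpleGraph ι} (dep : ι → ℕ) {S : Set ι}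
    (hS : (T.induce S).Connected) : ∃ t ∈ S, ∀ x ∈ S, dep t ≤ dep x := by
  obtain ⟨⟨x, hx⟩⟩ := hS.nonempty
  exact ⟨Function.argminOn dep S ⟨x, hx⟩, Function.argminOn_mem _ _ _,
    fun y hy => Function.argminOn_le _ _ hy⟩

theorem comp_tw [Finite V] {k : ℕ} (hG : TreewidthLE G k) (hH : TreewidthLE H k)
    (hab : H.Adj a b) : TreewidthLE (cG G H a b) k := by
  classical
  obtain ⟨ι, _, T, B, hT, b1, b2, b3⟩ := hG
  obtain ⟨ι', _, T', B', hT', c1, c2, c3⟩ := hH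
  obtain ⟨t', ha, hb⟩ := c1 a b hab
  choose t t1 t2 using fun e : G.Dart => b1 _ _ e.adj
  obtain ⟨ρ⟩ := hT.1.nonempty
  obtain ⟨par, dep, p0, p1, p2, p3⟩ := exists_rooting hT ρ
  obtain ⟨par', dep', q0, q1, q2, q3⟩ := exists_rooting hT' t'
  have : Finite G.Dart := Finite.of_injective _ SimpleGraph.Dart.toProd_injective
  let pr : ι ⊕ (G.Dart × ι') → ι ⊕ (G.Dart × ι') := Sum.elim (fun τ => .inl (par τ))
    fun x => if x.2 = t' then .inl (t x.1) else .inr (x.1, par' x.2)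
  let rk : ι ⊕ (G.Dart × ι') → ℕ := Sum.elim dep fun x => dep (t x.1) + 1 + dep' x.2
  let C : ι ⊕ (G.Dart × ι') → Finset (CV G a b) := Sum.elim (fun τ => (B τ).image .inl)
    fun x => (B' x.2).image (cj G a b x.1)
  have r1 : ∀ e, pr (.inr (e, t')) = .inl (t e) := fun e => if_pos rfl
  have r2 : ∀ e τ, τ ≠ t' → pr (.inr (e, τ)) = .inr (e, par' τ) := fun e τ h => if_neg h
  have hr : ∀ x, x ≠ .inl ρ → rk (pr x) < rk x := by
    rintro (τ | ⟨e, τ⟩) h
    · have := p2 τ fun g => h (congrArg _ g)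
      change dep (par τ) < dep τ
      omega
    · by_cases g : τ = t'
      · rw [g, r1]
        change dep (t e) < dep (t e) + 1 + _
        omega
      · have := q2 τ g
        rw [r2 e τ g]
        change dep (t e) + 1 + dep' (par' τ) < dep (t e) + 1 + dep' τ
        omega
  have m1 : ∀ x τ, .inl x ∈ C (.inl τ) ↔ x ∈ B τ := fun x τ => by simp [C]
  have m2 : ∀ z e τ, z ∈ C (.inr (e, τ)) ↔ ∃ u ∈ B' τ, cj G a b e u = z := fun z e τ =>
    Finset.mem_image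
  refine ⟨ι ⊕ (G.Dart × ι'), inferInstance, vtwT (.inl ρ) pr, C, vtw_tree hr, fun z z' h => ?_,
    fun z => ?_, ?_⟩
  · rcases cG_adj h with ⟨x, y, g, rfl, rfl⟩ | ⟨e, u, v, g, rfl, rfl⟩
    · obtain ⟨τ, h1, h2⟩ := b1 x y g
      exact ⟨.inl τ, (m1 _ _).2 h1, (m1 _ _).2 h2⟩
    · obtain ⟨τ, h1, h2⟩ := c1 u v g
      exact ⟨.inr (e, τ), (m2 _ _ _).2 ⟨u, h1, rfl⟩, (m2 _ _ _).2 ⟨v, h2, rfl⟩⟩
  · rcases z with x | ⟨e, v⟩
    · obtain ⟨τ0, h1, h2⟩ := tt_min dep (b2 x)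
      refine vtw_conn hr _ (t := .inl τ0) ((m1 _ _).2 h1) ?_
      rintro (τ | ⟨e, τ⟩) h3 h4
      · obtain ⟨h5, h6⟩ := top_of_conn p0 p1 p2 p3 (b2 x) h1 h2 τ ((m1 _ _).1 h3)
          fun g => h4 (congrArg _ g)
        exact ⟨fun g => h5 (Sum.inl_injective g), (m1 _ _).2 h6⟩
      · obtain ⟨u, h5, h6⟩ := (m2 _ _ _).1 h3
        refine ⟨Sum.inr_ne_inl, ?_⟩
        by_cases g : τ = t'
        · rw [g, r1]
          rcases tt_inl h6 with ⟨-, rfl⟩ | ⟨-, rfl⟩
          · exact (m1 _ _).2 (t1 e)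
          · exact (m1 _ _).2 (t2 e)
        · rw [r2 e τ g]
          refine (m2 _ _ _).2 ⟨u, (top_of_conn q0 q1 q2 q3 (c2 u) (t := t') ?_
            (fun _ _ => q1 ▸ Nat.zero_le _) τ h5 g).2, h6⟩
          rcases tt_inl h6 with ⟨rfl, -⟩ | ⟨rfl, -⟩
          · exact ha
          · exact hb
    · obtain ⟨τ0, h1, h2⟩ := tt_min dep' (c2 v)
      have hv : cj G a b e v = .inr (e, v) := cj_ne e v.2.1 v.2.2
      refine vtw_conn hr _ (t := .inr (e, τ0)) ((m2 _ _ _).2 ⟨v, h1, hv⟩) ?_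
      rintro (τ | ⟨e', τ⟩) h3 h4
      · simp [C] at h3
      · obtain ⟨u, h5, h6⟩ := (m2 _ _ _).1 h3
        obtain ⟨rfl, rfl⟩ := tt_inr h6
        obtain ⟨h7, h8⟩ := top_of_conn q0 q1 q2 q3 (c2 v) h1 h2 τ h5 fun g => h4 (by rw [g])
        rw [r2 _ τ h7]
        exact ⟨Sum.inr_ne_inl, (m2 _ _ _).2 ⟨v, h8, hv⟩⟩
  · rintro (τ | ⟨e, τ⟩)
    · exact Finset.card_image_le.trans (b3 τ)
    · exact Finset.card_image_le.trans (c3 τ)

end Vale.Agent.P235.Tw
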